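import Vale.Agent.Lib.P125.MultiJConvex
import Vale.Agent.Lib.P125.MultiEval

/-!
# Markov type with a moderate constant forces J-convexity: the `t`-step bound

`HasMarkovType X p K` (see `Vale/Agent/Lib/P125/Defs.lean`) says that the normed space `X` has
Markov type `p` with constant `K`; `jval t ε` (see `Vale/Agent/Lib/P125/MultiDefs.lean`) is the
largest absolute value of a one-cut signed sum of the sign pattern `ε` of length `t`.
-/

namespace Vale.Agent.Results.P125.MultiStepJConvex

open Vale.Agent.Lib.P125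

/-- `X` is J-convex: for some `n ≥ 2` and `δ > 0`, any `n` vectors `x_1, ..., x_n` of norm at
most `1` have a cut `k` with `‖x_1 + ... + x_k - x_{k+1} - ... - x_n‖ ≤ n - δ`. -/
def JConvex (X : Type*) [NormedAddCommGroup X] : Prop :=
  ∃ n : ℕ, 2 ≤ n ∧ ∃ δ : ℝ, 0 < δ ∧ ∀ x : Fin n → X, (∀ i, ‖x i‖ ≤ 1) →
    ∃ k : Fin n, ‖∑ i, (if i ≤ k then x i else - x i)‖ ≤ (n : ℝ) - δ

/-- A real normed space with Markov type `p` and constant `K` is J-convex as soon as, for some
`t ≥ 1`, `2^t * t * K^p` is less than the sum of `(jval t ε)^p` over the `2^t` sign patterns `ε`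
of length `t`; in particular if `12 K^p < 3^(p+1) + 1` (the case `t = 3`), and, for `p = 2`, if
`32 K^2 < 95` (the case `t = 8`). -/
theorem result (X : Type*) [NormedAddCommGroup X] [NormedSpace ℝ X] (p K : ℝ) (hp : 0 < p)
    (hM : HasMarkovType X p K) :
    (∀ t : ℕ, 1 ≤ t →
        (2 : ℝ) ^ t * (t : ℝ) * K ^ p < ∑ ε : Fin t → Bool, (jval t ε : ℝ) ^ p → JConvex X) ∧
      (12 * K ^ p < 3 ^ (p + 1) + 1 → JConvex X) ∧
      (p = 2 → 32 * K ^ 2 < 95 → JConvex X) := by
  refine ⟨fun t ht hK => markov_multi_jconvex p K hp hM t ht hK, ?_, ?_⟩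
  · intro h
    apply markov_multi_jconvex p K hp hM 3 (by norm_num)
    rw [sum_jval_three (fun j => (j : ℝ) ^ p)]
    have h3 : (3 : ℝ) ^ (p + 1) = 3 ^ p * 3 := Real.rpow_add_one (by norm_num) p
    rw [h3] at h
    simp only [Nat.cast_ofNat, Nat.cast_one, Real.one_rpow]
    norm_num
    linarith
  · intro h2 h
    subst h2
    apply markov_multi_jconvex 2 K hp hM 8 (by norm_num)
    rw [sum_jval_rpow_eight, Real.rpow_two]
    norm_num
    linarith

end Vale.Agent.Results.P125.MultiStepJConvex
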