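import Vale.Agent.Lib.P125.JConvex

/-!
# Markov type with a small constant forces J-convexity

`HasMarkovType X p K` (see `Vale/Agent/Lib/P125/Defs.lean`) says that the normed space `X` has
Markov type `p` with constant `K`.
-/

namespace Vale.Agent.Results.P125.SmallConstantJConvex

open Vale.Agent.Lib.P125

/-- A real normed space with Markov type `p` and constant `K`, where `K ^ p < 2 ^ (p - 1)`, is
J-convex: for some `n ≥ 2` and `δ > 0`, any `n` vectors `x_1, ..., x_n` of norm at most `1` have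
a cut `k` with `‖x_1 + ... + x_k - x_{k+1} - ... - x_n‖ ≤ n - δ`. -/
theorem result (X : Type*) [NormedAddCommGroup X] [NormedSpace ℝ X] (p K : ℝ) (hp : 0 < p)
    (hM : HasMarkovType X p K) (hK : K ^ p < 2 ^ (p - 1)) :
    ∃ n : ℕ, 2 ≤ n ∧ ∃ δ : ℝ, 0 < δ ∧ ∀ x : Fin n → X, (∀ i, ‖x i‖ ≤ 1) →
      ∃ k : Fin n, ‖∑ i, (if i ≤ k then x i else - x i)‖ ≤ (n : ℝ) - δ :=
  markov_jconvex p K hp hM hK

end Vale.Agent.Results.P125.SmallConstantJConvex
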