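import Vale.Agent.Lib.P125.NonSquare

/-!
# Markov type with a small constant forces uniform non-squareness

`HasMarkovType X p K` (see `Vale/Agent/Lib/P125/Defs.lean`) says that the normed space `X` has
Markov type `p` with constant `K`.
-/

namespace Vale.Agent.Results.P125.SmallConstantNonSquare

open Vale.Agent.Lib.P125

/-- A real normed space with Markov type `p` and constant `K` satisfies a parallelogram-type
inequality with constant `4 K^p - 2^(p-1)`; if `8 K^p < 3 · 2^p` it is uniformly non-square. -/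
theorem result (X : Type*) [NormedAddCommGroup X] [NormedSpace ℝ X] (p K : ℝ) (hp : 0 < p)
    (hM : HasMarkovType X p K) :
    (∀ x y : X, ‖x + y‖ ^ p + ‖x - y‖ ^ p ≤ (4 * K ^ p - 2 ^ (p - 1)) * (‖x‖ ^ p + ‖y‖ ^ p)) ∧
    (8 * K ^ p < 3 * 2 ^ p →
      ∃ δ : ℝ, 0 < δ ∧ ∀ x y : X, ‖x‖ ≤ 1 → ‖y‖ ≤ 1 → ‖x + y‖ ≤ 2 - δ ∨ ‖x - y‖ ≤ 2 - δ) :=
  ⟨fun x y => markov_parallelogram p K hp hM x y, fun hK => markov_nonsquare p K hp hM hK⟩

end Vale.Agent.Results.P125.SmallConstantNonSquare
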